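import Crest.Agent.H9.RI.Defs

/-! Task `T_orth` of the S0149 skeleton. -/

set_option autoImplicit false

noncomputable section

namespace Crest.Agent.H8.RI

open MeasureTheory Filter Set Crest.Agent.H2.RP Crest.Agent.H9.RI
open scoped Classical

theorem mv_add (θ : ℝ) (x : Cir) (a b : ℤ) : mv θ (mv θ x a) b = mv θ x (a + b) := by
  unfold mv
  rw [add_assoc, ← AddCircle.coe_add]
  congr 2
  push_cast; ring

theorem mv_zero (θ : ℝ) (x : Cir) : mv θ x 0 = x := by simp [mv]

theorem measurable_mv (θ : ℝ) (k : ℤ) : Measurable fun x => mv θ x k := measurable_add_const _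

theorem int_mv (θ : ℝ) (k : ℤ) (g : Cir → ℝ) : ∫ x, g (mv θ x k) ∂mu = ∫ x, g x ∂mu :=
  integral_add_right_eq_self g _

theorem real_mv (θ : ℝ) (k : ℤ) {A : Set Cir} (hA : MeasurableSet A) :
    mu.real {x | mv θ x k ∈ A} = mu.real A :=
  (measurePreserving_add_right mu _).measureReal_preimage hA.nullMeasurableSet

theorem RB_int {v : Cir → ℝ} {R : ℝ} (hv : RB v R) : Integrable v mu :=
  Integrable.of_bound hv.1.aestronglyMeasurable R (Eventually.of_forall hv.2)

theorem zt_RB {V : Set Cir} (hV : MeasurableSet V) {η : ℝ} (h0 : 0 ≤ η) (h1 : η ≤ 1) :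
    RB (zt V η) 1 := by
  refine ⟨(measurable_const.indicator hV).sub_const _, fun x => ?_⟩
  unfold zt
  by_cases h : x ∈ V
  · rw [indicator_of_mem h, abs_le]; constructor <;> linarith
  · rw [indicator_of_notMem h, abs_le]; constructor <;> linarith

theorem t_orth : T_orth := by
  intro θ V V' D' η η' δ N hV hV' hD' h0 h1 h0' h1' hδ hA hc
  obtain ⟨K, n, Y, hK, hn, hY, hYm, hcnt⟩ := hA
  have r1 := zt_RB hV h0 h1
  have r2 := zt_RB hV' h0' h1'
  set B : Set Cir := ⋃ i ∈ Finset.range N, {x | mv θ x ((i : ℤ) + 1) ∈ D'} with hB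
  have mB : MeasurableSet B :=
    Finset.measurableSet_biUnion _ fun i _ => measurable_mv θ _ hD'
  have hBm : mu.real B ≤ N * mu.real D' := by
    refine (measureReal_biUnion_finset_le _ _).trans_eq ?_
    rw [Finset.sum_congr rfl fun i _ => real_mv θ _ hD', Finset.sum_const, Finset.card_range,
      nsmul_eq_mul]
  have hst : ∀ x ∉ B, ∀ m : ℕ, m ≤ N → (mv θ x m ∈ V' ↔ x ∈ V') := by
    intro x hx m
    induction m with
    | zero => intro _; rw [Nat.cast_zero, mv_zero]
    | succ m ih =>
      intro hm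
      have h2 : mv θ (mv θ x m) 1 ∉ D' := by
        rw [mv_add]
        intro h
        exact hx (mem_iUnion₂.2 ⟨m, Finset.mem_range.2 (by omega), h⟩)
      have h3 := hc _ h2
      rw [mv_add] at h3
      rw [← ih (by omega), h3]; push_cast; rfl
  have hp : RB (fun x => zt V η x * zt V' η' x) 1 :=
    ⟨r1.1.mul r2.1, fun x => by
      rw [abs_mul]; exact mul_le_one₀ (r1.2 x) (abs_nonneg _) (r2.2 x)⟩
  set g : Cir → ℝ := fun x => ∑ k, zt V η (mv θ x (n k)) * zt V' η' (mv θ x (n k)) with hg
  have hi : ∀ k, Integrable (fun x => zt V η (mv θ x (n k)) * zt V' η' (mv θ x (n k))) mu :=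
    fun k => RB_int (R := 1) ⟨hp.1.comp (measurable_mv θ _), fun x => hp.2 _⟩
  have hI : ∫ x, g x ∂mu = K * ∫ x, zt V η x * zt V' η' x ∂mu := by
    rw [hg, integral_finsetSum _ fun k _ => hi k,
      Finset.sum_congr rfl fun k _ => int_mv θ (n k) fun x => zt V η x * zt V' η' x]
    simp
  have hK' : (0 : ℝ) < K := by exact_mod_cast hK
  have hb : ∀ x, |g x| ≤ δ * K + (Y ∪ B).indicator (fun _ => (K : ℝ)) x := by
    intro x
    by_cases hx : x ∈ Y ∪ B
    · rw [indicator_of_mem hx]
      have : |g x| ≤ K := (Finset.abs_sum_le_sum_abs _ _).trans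
        ((Finset.sum_le_sum fun k _ => hp.2 (mv θ x (n k))).trans (by simp))
      nlinarith
    · rw [indicator_of_notMem hx, add_zero]
      rw [mem_union, not_or] at hx
      have e1 : ∀ k, zt V' η' (mv θ x (n k)) = zt V' η' x := by
        intro k
        have := hst x hx.2 (n k) (hn k)
        unfold zt
        by_cases h : x ∈ V'
        · rw [indicator_of_mem h, indicator_of_mem (this.2 h)]
        · rw [indicator_of_notMem h, indicator_of_notMem fun h' => h (this.1 h')]
      have e2 : ∑ k, zt V η (mv θ x (n k)) =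
          ((Finset.univ.filter fun k => mv θ x (n k) ∈ V).card : ℝ) - η * K := by
        simp only [zt, Finset.sum_sub_distrib, Finset.card_filter, indicator_apply]
        simp [mul_comm]
      simp only [hg, e1]
      rw [← Finset.sum_mul, e2, abs_mul]
      exact (mul_le_of_le_one_right (abs_nonneg _) (r2.2 x)).trans (hcnt x hx.1)
  have hint : |∫ x, g x ∂mu| ≤ δ * K + K * mu.real (Y ∪ B) := by
    refine (abs_integral_le_integral_abs).trans ((integral_mono
      (integrable_finsetSum _ fun k _ => hi k).abs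
      ((integrable_const _).add ((integrable_const _).indicator (hY.union mB))) hb).trans_eq ?_)
    rw [integral_add' (integrable_const _) ((integrable_const (K : ℝ)).indicator (hY.union mB)),
      integral_indicator_const _ (hY.union mB)]
    simp [mul_comm]
  have hu : mu.real (Y ∪ B) ≤ δ + N * mu.real D' :=
    (measureReal_union_le _ _).trans (add_le_add hYm hBm)
  rw [hI, abs_mul, abs_of_pos hK'] at hint
  refine le_of_mul_le_mul_left ?_ hK'
  nlinarith

end Crest.Agent.H8.RI
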