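import Crest.Agent.H8.RI.Smooth
import Crest.Agent.H9.RI.Defs

/-! Tasks `T_smooth` and `T_wt` of the S0149 skeleton. -/

set_option autoImplicit false

noncomputable section

namespace Crest.Agent.H8.RI

open MeasureTheory Filter Topology Set Crest.Agent.H2.RP Crest.Agent.H9.RI

theorem t_smooth : T_smooth := by
  intro a G r e ha h0 hr he
  obtain ⟨b, hb, hb0, hbs, Z, hZ, hZm, hZe⟩ := lusin (C := G) (d := r) ha.1
    (fun t => ⟨h0 t, (le_abs_self _).trans (ha.2 t)⟩)
    (fun t ht => by
      by_contra h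
      exact ht (mem_ball_zero_iff.2 (hr t h))) he
  refine ⟨b, Z, hb, fun x => (hb0 x).1, fun x hx => ?_, hZ, ?_, fun x hx => ?_⟩
  · have : x ∈ Metric.ball (0 : Cir) r := by
      by_contra h
      exact hx (hbs x h)
    rw [mem_ball_zero_iff] at this
    linarith [norm_nonneg x]
  · exact ENNReal.toReal_le_of_le_ofReal he.le hZm
  · rw [hZe x hx, sub_self, abs_zero]; exact he.le

theorem ext_weight {g : Cir → ℝ} (hgc : Continuous g) (hg0 : ∀ t, 0 ≤ g t) (hg1 : ∀ t, g t ≤ 1)
    (hgz : g 0 = 0) (hgpos : ∀ t, t ≠ 0 → 0 < g t)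
    (hint : ∫⁻ t, ENNReal.ofReal (-Real.log (g t)) ∂mu = ⊤) :
    ∃ F, Wt F ∧ ∀ x : Cir, F (fourier 1 x) = g x := by
  have hinj : Function.Injective (fourier 1 : Cir → ℂ) := by
    intro s t h
    rw [fourier_one, fourier_one] at h
    exact AddCircle.injective_toCircle one_ne_zero (Circle.ext h)
  obtain ⟨f, -, hf⟩ := ContinuousMap.exists_extension_forall_mem_of_isClosedEmbedding
    (⟨g, hgc⟩ : C(Cir, ℝ)) (t := univ) (e := (fourier 1 : Cir → ℂ)) (fun _ => mem_univ _)
    univ_nonempty ((map_continuous _).isClosedEmbedding hinj)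
  have hf' : ∀ t, f (fourier 1 t) = g t := fun t => congrFun hf t
  have hexp : ∀ t : ℝ, Complex.exp ((t : ℂ) * Complex.I) =
      fourier 1 ((t / (2 * Real.pi) : ℝ) : Cir) := by
    intro t
    rw [fourier_coe_apply]
    congr 1
    have : (Real.pi : ℂ) ≠ 0 := by exact_mod_cast Real.pi_ne_zero
    push_cast; field_simp
  have hsurj : ∀ z : ℂ, ‖z‖ = 1 → ∃ t : Cir, fourier 1 t = z := by
    intro z hz
    refine ⟨((Complex.arg z / (2 * Real.pi) : ℝ) : Cir), ?_⟩
    rw [← hexp]
    simpa [hz] using Complex.norm_mul_exp_arg_mul_I z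
  have hone : (fourier 1 (0 : Cir) : ℂ) = 1 := by simp
  refine ⟨f, ⟨f.continuous, fun z hz => ?_, fun z hz => ?_, ?_⟩, hf'⟩
  · obtain ⟨t, rfl⟩ := hsurj z hz
    rw [hf']; exact ⟨hg0 t, hg1 t⟩
  · obtain ⟨t, rfl⟩ := hsurj z hz
    rw [hf']
    constructor
    · intro h
      by_contra hne
      exact (hgpos t fun e => hne (by rw [e, hone])).ne' h
    · intro h
      rw [hinj (h.trans hone.symm), hgz]
  · simp only [hexp, hf']
    exact top_unique (hint.ge.trans (lintegral_circle fun t => ENNReal.ofReal (-Real.log (g t))))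

theorem dyadic_le {x : ℝ} (hx : 0 < x) (N : ℕ) :
    ∑ j ∈ Finset.range N, (if x ≤ 1 / 2 ^ (j + 1) then (2 : ℝ) ^ j else 0) ≤ min (1 / x) (2 ^ N) := by
  induction N with
  | zero => simp [hx.le]
  | succ N ih =>
    rw [Finset.sum_range_succ]
    have h1 := ih.trans (min_le_left _ _)
    have h2 := ih.trans (min_le_right _ _)
    have h3 : (0 : ℝ) < 2 ^ N := by positivity
    split_ifs with h
    · have h4 : (2 : ℝ) ^ (N + 1) ≤ 1 / x := by
        rw [le_div_iff₀ (by positivity)] at h
        rw [le_div_iff₀ hx]; linarith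
      rw [pow_succ] at h4 ⊢
      exact le_min (by linarith) (by linarith)
    · rw [pow_succ]
      exact le_min (by linarith) (by linarith)

theorem ae_ne_zero : ∀ᵐ t ∂mu, t ≠ (0 : Cir) := by
  rw [mu_eq_volume]
  have : volume ({0} : Set Cir) = 0 := by
    rw [← Metric.closedBall_zero, AddCircle.volume_closedBall]; simp
  exact compl_mem_ae_iff.2 this

theorem lintegral_inv_norm : ∫⁻ t : Cir, ENNReal.ofReal (1 / ‖t‖) ∂mu = ⊤ := by
  have hN : ∀ N : ℕ, (N : ENNReal) ≤ ∫⁻ t : Cir, ENNReal.ofReal (1 / ‖t‖) ∂mu := by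
    intro N
    have h1 : ∀ j : ℕ, (1 : ENNReal) = ∫⁻ t, (Metric.closedBall (0 : Cir) (1 / 2 ^ (j + 1))).indicator
        (fun _ => ENNReal.ofReal (2 ^ j)) t ∂mu := by
      intro j
      have h2 : (2 : ℝ) * (1 / 2 ^ (j + 1)) = 1 / 2 ^ j := by rw [pow_succ]; field_simp
      rw [lintegral_indicator_const Metric.isClosed_closedBall.measurableSet, mu_eq_volume,
        AddCircle.volume_closedBall, h2, min_eq_right
          ((div_le_one (by positivity)).2 (one_le_pow₀ (by norm_num))),
        ← ENNReal.ofReal_mul (by positivity)]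
      simp
    calc (N : ENNReal) = ∑ _j ∈ Finset.range N, (1 : ENNReal) := by simp
      _ = ∑ j ∈ Finset.range N, ∫⁻ t, (Metric.closedBall (0 : Cir) (1 / 2 ^ (j + 1))).indicator
        (fun _ => ENNReal.ofReal (2 ^ j)) t ∂mu := Finset.sum_congr rfl fun j _ => h1 j
      _ = ∫⁻ t, ∑ j ∈ Finset.range N, (Metric.closedBall (0 : Cir) (1 / 2 ^ (j + 1))).indicator
        (fun _ => ENNReal.ofReal (2 ^ j)) t ∂mu := by
        rw [lintegral_finsetSum]
        exact fun j _ => measurable_const.indicator Metric.isClosed_closedBall.measurableSet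
      _ ≤ _ := by
        refine lintegral_mono_ae ?_
        filter_upwards [ae_ne_zero] with t ht
        refine le_trans ?_ (ENNReal.ofReal_le_ofReal
          ((dyadic_le (norm_pos_iff.2 ht) N).trans (min_le_left _ _)))
        rw [ENNReal.ofReal_sum_of_nonneg fun j _ => by split_ifs <;> positivity]
        refine Finset.sum_le_sum fun j _ => ?_
        by_cases h : t ∈ Metric.closedBall (0 : Cir) (1 / 2 ^ (j + 1))
        · rw [indicator_of_mem h, if_pos (mem_closedBall_zero_iff.1 h)]
        · rw [indicator_of_notMem h]; exact zero_le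
  exact ENNReal.eq_top_of_forall_nnreal_le fun r =>
    le_trans (by exact_mod_cast Nat.le_ceil r) (hN ⌈r⌉₊)

theorem t_wt : T_wt := by
  intro b r hr hc h0 hs
  have hT : ∀ x, 0 ≤ ∑' j, b j x := fun x => tsum_nonneg fun j => h0 j x
  have hE : ∀ x : Cir, 0 ≤ 1 / ‖x‖ + ∑' j, b j x := fun x => add_nonneg (by positivity) (hT x)
  have hne : ∀ x : Cir, x ≠ 0 → wt b x = Real.exp (-(1 / ‖x‖ + ∑' j, b j x)) :=
    fun x hx => if_neg hx
  have hz : wt b 0 = 0 := if_pos rfl
  have hpos : ∀ x, x ≠ 0 → 0 < wt b x := fun x hx => by rw [hne x hx]; exact Real.exp_pos _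
  have hg0 : ∀ x, 0 ≤ wt b x := fun x => by
    by_cases hx : x = 0
    · rw [hx, hz]
    · exact (hpos x hx).le
  refine ext_weight ?_ hg0 (fun x => ?_) hz hpos ?_
  · rw [continuous_iff_continuousAt]
    intro t
    by_cases ht : t = 0
    · subst ht
      rw [ContinuousAt, hz, tendsto_order]
      refine ⟨fun r hr => Eventually.of_forall fun s => hr.trans_le (hg0 s), fun ε hε => ?_⟩
      filter_upwards [Metric.ball_mem_nhds (0 : Cir) hε] with s hs'
      by_cases hs0 : s = 0
      · rw [hs0, hz]; exact hε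
      · rw [mem_ball_zero_iff] at hs'
        have hp := norm_pos_iff.2 hs0
        rw [hne s hs0]
        calc Real.exp (-(1 / ‖s‖ + ∑' j, b j s)) ≤ Real.exp (-(1 / ‖s‖)) :=
              Real.exp_le_exp.2 (by linarith [hT s])
          _ ≤ ‖s‖ := by
              rw [Real.exp_neg, inv_le_comm₀ (Real.exp_pos _) hp, one_div]
              linarith [Real.add_one_le_exp (‖s‖⁻¹)]
          _ < ε := hs'
    · have htp := norm_pos_iff.2 ht
      obtain ⟨N, hN⟩ := eventually_atTop.1 (hr.eventually (gt_mem_nhds (half_pos htp)))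
      have h1 : ∀ᶠ s in 𝓝 t, ‖t‖ / 2 < ‖s‖ :=
        continuous_norm.continuousAt.eventually (lt_mem_nhds (half_lt_self htp))
      refine ContinuousAt.congr
        (f := fun s => Real.exp (-(1 / ‖s‖ + ∑ j ∈ Finset.range N, b j s))) ?_ ?_
      · refine Real.continuous_exp.continuousAt.comp (ContinuousAt.neg (ContinuousAt.add ?_ ?_))
        · exact continuousAt_const.div continuous_norm.continuousAt htp.ne'
        · exact (continuous_finsetSum _ fun j _ => hc j).continuousAt
      · filter_upwards [h1] with s hs'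
        have hs0 : s ≠ 0 := norm_pos_iff.1 (by linarith)
        rw [hne s hs0, tsum_eq_sum (s := Finset.range N)]
        intro j hj
        by_contra h
        have := hN j (by simpa using hj)
        linarith [hs j s h]
  · by_cases hx : x = 0
    · rw [hx, hz]; exact zero_le_one
    · rw [hne x hx]; exact Real.exp_le_one_iff.2 (by linarith [hE x])
  · refine top_unique (lintegral_inv_norm.ge.trans (lintegral_mono_ae ?_))
    filter_upwards [ae_ne_zero] with t ht
    rw [hne t ht, Real.log_exp]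
    exact ENNReal.ofReal_le_ofReal (by linarith [hT t])

end Crest.Agent.H8.RI
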