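import Crest.Agent.H2.RP.Mult

/-! Smoothing of costs and the continuous weight for S0149. -/

set_option autoImplicit false

noncomputable section

namespace Crest.Agent.H8.RI

open MeasureTheory Filter Topology Set Crest.Agent.H2.RP

theorem mu_eq_volume : mu = (volume : Measure Cir) := by
  rw [AddCircle.volume_eq_smul_haarAddCircle]; simp

/-- Lusin: a measurable function is continuous on a closed set of almost full measure. -/
theorem lusin_closed {a : Cir → ℝ} (ha : Measurable a) {ε : ℝ} (hε : 0 < ε) :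
    ∃ K : Set Cir, IsClosed K ∧ mu Kᶜ ≤ ENNReal.ofReal ε ∧ ContinuousOn a K := by
  have hε' : ENNReal.ofReal ε / 2 ≠ 0 := by
    simp [hε]
  obtain ⟨η, hη, hsum⟩ := ENNReal.exists_pos_sum_of_countable' hε' ℚ
  have h1 : ∀ q : ℚ, ∃ F, F ⊆ {t | a t < q} ∧ IsClosed F ∧ mu ({t | a t < q} \ F) < η q :=
    fun q => (measurableSet_lt ha measurable_const).exists_isClosed_sdiff_lt (measure_ne_top _ _)
      (hη q).ne'
  have h2 : ∀ q : ℚ, ∃ F, F ⊆ {t | (q : ℝ) ≤ a t} ∧ IsClosed F ∧
      mu ({t | (q : ℝ) ≤ a t} \ F) < η q :=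
    fun q => (measurableSet_le measurable_const ha).exists_isClosed_sdiff_lt (measure_ne_top _ _)
      (hη q).ne'
  choose F hF1 hF2 hF3 using h1
  choose G hG1 hG2 hG3 using h2
  refine ⟨⋂ q, (F q ∪ G q), isClosed_iInter fun q => (hF2 q).union (hG2 q), ?_, ?_⟩
  · rw [compl_iInter]
    refine (measure_iUnion_le _).trans ?_
    have : ∀ q : ℚ, mu (F q ∪ G q)ᶜ ≤ η q + η q := by
      intro q
      have hs : (F q ∪ G q)ᶜ ⊆ ({t | a t < q} \ F q) ∪ ({t | (q : ℝ) ≤ a t} \ G q) := by
        intro t ht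
        simp only [mem_compl_iff, mem_union, not_or] at ht
        rcases lt_or_ge (a t) q with h | h
        · exact Or.inl ⟨h, ht.1⟩
        · exact Or.inr ⟨h, ht.2⟩
      exact (measure_mono hs).trans ((measure_union_le _ _).trans
        (add_le_add (hF3 q).le (hG3 q).le))
    refine (ENNReal.tsum_le_tsum this).trans ?_
    rw [ENNReal.tsum_add]
    exact (add_le_add hsum.le hsum.le).trans (ENNReal.add_halves _).le
  · intro t ht
    rw [ContinuousWithinAt, tendsto_order]
    constructor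
    · intro r hr
      obtain ⟨q, hq1, hq2⟩ := exists_rat_btwn hr
      have htF : t ∉ F q := fun h => absurd (hF1 q h) (not_lt.2 hq2.le)
      filter_upwards [self_mem_nhdsWithin,
        mem_nhdsWithin_of_mem_nhds ((hF2 q).isOpen_compl.mem_nhds htF)] with s hs hsF
      rcases mem_iInter.1 hs q with h | h
      · exact absurd h hsF
      · exact hq1.trans_le (hG1 q h)
    · intro r hr
      obtain ⟨q, hq1, hq2⟩ := exists_rat_btwn hr
      have htG : t ∉ G q := fun h => absurd (hG1 q h) (not_le.2 hq1)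
      filter_upwards [self_mem_nhdsWithin,
        mem_nhdsWithin_of_mem_nhds ((hG2 q).isOpen_compl.mem_nhds htG)] with s hs hsG
      rcases mem_iInter.1 hs q with h | h
      · exact (hF1 q h).trans hq2
      · exact absurd h hsG

/-- A bounded measurable cost supported in a small ball agrees off a small set with a continuous
one with the same bounds and support. -/
theorem lusin {a : Cir → ℝ} (ha : Measurable a) {C d ε : ℝ} (hC : ∀ t, 0 ≤ a t ∧ a t ≤ C)
    (hd : ∀ t, t ∉ Metric.ball (0 : Cir) d → a t = 0) (hε : 0 < ε) :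
    ∃ a' : Cir → ℝ, Continuous a' ∧ (∀ t, 0 ≤ a' t ∧ a' t ≤ C) ∧
      (∀ t, t ∉ Metric.ball (0 : Cir) d → a' t = 0) ∧
      ∃ Z : Set Cir, MeasurableSet Z ∧ mu Z ≤ ENNReal.ofReal ε ∧ ∀ t, t ∉ Z → a' t = a t := by
  obtain ⟨K, hK, hKm, hKc⟩ := lusin_closed ha hε
  have hB : IsClosed (Metric.ball (0 : Cir) d)ᶜ := Metric.isOpen_ball.isClosed_compl
  have hc : ContinuousOn a (K ∪ (Metric.ball (0 : Cir) d)ᶜ) :=
    hKc.union_of_isClosed (continuousOn_const.congr fun t ht => hd t ht) hK hB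
  obtain ⟨g, hg1, hg2⟩ := ContinuousMap.exists_restrict_eq_forall_mem_of_closed
    (⟨_, hc.domRestrict⟩ : C((K ∪ (Metric.ball (0 : Cir) d)ᶜ : Set Cir), ℝ)) (t := Icc 0 C)
    (fun x => hC x) ⟨0, le_rfl, (hC 0).1.trans (hC 0).2⟩ (hK.union hB)
  have hg3 : ∀ t, t ∈ K ∪ (Metric.ball (0 : Cir) d)ᶜ → g t = a t := fun t ht =>
    congrArg (fun φ : C((K ∪ (Metric.ball (0 : Cir) d)ᶜ : Set Cir), ℝ) => φ ⟨t, ht⟩) hg2
  refine ⟨g, g.continuous, hg1, fun t ht => (hg3 t (Or.inr ht)).trans (hd t ht), Kᶜ,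
    hK.measurableSet.compl, hKm, fun t ht => hg3 t (Or.inl (not_not.1 ht))⟩

/-- explicit bump -/
def bump (d : ℝ) (t : Cir) : ℝ := 4 / d ^ 2 * max 0 (d - ‖t‖)

theorem bump_continuous (d : ℝ) : Continuous (bump d) := by unfold bump; fun_prop

theorem bump_nonneg (d : ℝ) (t : Cir) : 0 ≤ bump d t := by unfold bump; positivity

theorem bump_le {d : ℝ} (hd : 0 < d) (t : Cir) : bump d t ≤ 4 / d := by
  unfold bump
  have h : max 0 (d - ‖t‖) ≤ d := max_le hd.le (by linarith [norm_nonneg t])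
  calc 4 / d ^ 2 * max 0 (d - ‖t‖) ≤ 4 / d ^ 2 * d := by gcongr
    _ = 4 / d := by field_simp

theorem bump_zero {d : ℝ} {t : Cir} (ht : t ∉ Metric.ball (0 : Cir) d) : bump d t = 0 := by
  rw [mem_ball_zero_iff, not_lt] at ht
  unfold bump
  rw [max_eq_left (by linarith), mul_zero]

theorem bump_ge {d : ℝ} (hd : 0 < d) {t : Cir} (ht : ‖t‖ ≤ d / 2) : 2 / d ≤ bump d t := by
  unfold bump
  have h : d / 2 ≤ max 0 (d - ‖t‖) := le_max_of_le_right (by linarith)
  calc 2 / d = 4 / d ^ 2 * (d / 2) := by field_simp; ring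
    _ ≤ _ := by gcongr

theorem bump_lintegral {d : ℝ} (hd : 0 < d) (hd1 : d ≤ 1) :
    1 ≤ ∫⁻ t, ENNReal.ofReal (bump d t) ∂mu := by
  have h1 : mu (Metric.closedBall (0 : Cir) (d / 2)) = ENNReal.ofReal d := by
    rw [mu_eq_volume, AddCircle.volume_closedBall, min_eq_right (by linarith)]
    congr 1; ring
  calc (1 : ENNReal) ≤ ENNReal.ofReal (2 / d) * mu (Metric.closedBall (0 : Cir) (d / 2)) := by
        rw [h1, ← ENNReal.ofReal_mul (by positivity), div_mul_cancel₀ _ hd.ne']
        simp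
    _ = ∫⁻ t, (Metric.closedBall (0 : Cir) (d / 2)).indicator
          (fun _ => ENNReal.ofReal (2 / d)) t ∂mu := by
        rw [lintegral_indicator_const Metric.isClosed_closedBall.measurableSet]
    _ ≤ _ := by
        refine lintegral_mono fun t => ?_
        by_cases ht : t ∈ Metric.closedBall (0 : Cir) (d / 2)
        · rw [indicator_of_mem ht]
          exact ENNReal.ofReal_le_ofReal (bump_ge hd (mem_closedBall_zero_iff.1 ht))
        · rw [indicator_of_notMem ht]; exact zero_le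

theorem lintegral_circle (F : Cir → ENNReal) :
    ∫⁻ t, F t ∂mu ≤ ∫⁻ t in Ioc (0 : ℝ) (2 * Real.pi), F ((t / (2 * Real.pi) : ℝ) : Cir) := by
  have hpi := Real.pi_gt_three
  have h1 := AddCircle.lintegral_preimage (1 : ℝ) 0 F
  have h2 : Ioc (0 : ℝ) (2 * Real.pi) = (fun s : ℝ => 2 * Real.pi * s) '' Ioc 0 1 := by
    ext x
    constructor
    · rintro ⟨hx1, hx2⟩
      refine ⟨x / (2 * Real.pi), ⟨by positivity, (div_le_one (by positivity)).2 hx2⟩, ?_⟩
      simp only
      field_simp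
    · rintro ⟨s, ⟨hs1, hs2⟩, rfl⟩
      exact ⟨by positivity, by simp only; nlinarith⟩
  have h3 := lintegral_image_eq_lintegral_abs_deriv_mul (s := Ioc (0 : ℝ) 1)
    (f := fun s : ℝ => 2 * Real.pi * s) (f' := fun _ => 2 * Real.pi) measurableSet_Ioc
    (fun x _ => by simpa using ((hasDerivAt_id x).const_mul (2 * Real.pi)).hasDerivWithinAt)
    (fun x _ y _ h => mul_left_cancel₀ (by positivity) h)
    (fun t => F ((t / (2 * Real.pi) : ℝ) : Cir))
  rw [h2, h3, mu_eq_volume, ← h1, zero_add]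
  refine lintegral_mono fun s => ?_
  rw [mul_div_cancel_left₀ _ (by positivity)]
  refine le_mul_of_one_le_left zero_le ?_
  rw [abs_of_pos (by positivity)]
  exact ENNReal.one_le_ofReal.2 (by linarith)

theorem weight (a : ℕ → Cir → ℝ) (d : ℕ → ℝ) (hc : ∀ j, Continuous (a j))
    (h0 : ∀ j t, 0 ≤ a j t) (hs : ∀ j t, t ∉ Metric.ball (0 : Cir) (d j) → a j t = 0)
    (hd0 : ∀ j, 0 < d j) (hd1 : ∀ j, d j ≤ 1) (hd : Tendsto d atTop (𝓝 0)) :
    ∃ f : ℂ → ℝ, Continuous f ∧ (∀ z : ℂ, ‖z‖ = 1 → 0 ≤ f z ∧ f z ≤ 1) ∧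
      (∀ z : ℂ, ‖z‖ = 1 → (f z = 0 ↔ z = 1)) ∧
      (∫⁻ t in Set.Ioc (0 : ℝ) (2 * Real.pi),
          ENNReal.ofReal (- Real.log (f (Complex.exp ((t : ℂ) * Complex.I)))) = ⊤) ∧
      (∀ t : Cir, t ≠ 0 → 0 < f (fourier 1 t)) ∧
      (∀ (N : ℕ) (t : Cir),
        f (fourier 1 t) ≤ Real.exp (-∑ j ∈ Finset.range N, (a j t + bump (d j) t))) ∧
      ∀ (N : ℕ) (t : Cir), (∀ j, N ≤ j → t ∉ Metric.ball (0 : Cir) (d j)) →
        f (fourier 1 t) = Real.exp (-∑ j ∈ Finset.range N, (a j t + bump (d j) t)) := by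
  classical
  set S : ℕ → Cir → ℝ := fun N t => ∑ j ∈ Finset.range N, (a j t + bump (d j) t) with hS
  have hpos : ∀ j t, 0 ≤ a j t + bump (d j) t := fun j t => add_nonneg (h0 j t) (bump_nonneg _ _)
  have hSc : ∀ N, Continuous (S N) := fun N =>
    continuous_finsetSum _ fun j _ => (hc j).add (bump_continuous _)
  have hmono : ∀ t, Monotone fun N => S N t := fun t M N h =>
    Finset.sum_le_sum_of_subset_of_nonneg (Finset.range_mono h) fun j _ _ => hpos j t
  set g : Cir → ℝ := fun t => ⨅ N, Real.exp (-S N t) with hg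
  have hbdd : ∀ t, BddBelow (range fun N => Real.exp (-S N t)) := fun t =>
    ⟨0, by rintro _ ⟨N, rfl⟩; exact (Real.exp_pos _).le⟩
  have hle : ∀ N t, g t ≤ Real.exp (-S N t) := fun N t => ciInf_le (hbdd t) N
  have hg0 : ∀ t, 0 ≤ g t := fun t => le_ciInf fun N => (Real.exp_pos _).le
  have hg1 : ∀ t, g t ≤ 1 := fun t => by simpa [hS] using hle 0 t
  have heq : ∀ N t, (∀ j, N ≤ j → t ∉ Metric.ball (0 : Cir) (d j)) →
      g t = Real.exp (-S N t) := by
    intro N t ht
    refine le_antisymm (hle N t) (le_ciInf fun M => Real.exp_le_exp.2 (neg_le_neg ?_))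
    have : ∀ k, S (N + k) t = S N t := by
      intro k
      induction k with
      | zero => rfl
      | succ k ih =>
        have h1 := ht (N + k) (Nat.le_add_right _ _)
        rw [← ih, ← add_assoc]
        simp only [hS]
        rw [Finset.sum_range_succ, hs _ _ h1, bump_zero h1]; simp
    rw [← this M]
    exact hmono t (Nat.le_add_left _ _)
  have hfar : ∀ r : ℝ, 0 < r → ∃ N, ∀ t : Cir, r ≤ ‖t‖ → ∀ j, N ≤ j →
      t ∉ Metric.ball (0 : Cir) (d j) := by
    intro r hr
    obtain ⟨N, hN⟩ := eventually_atTop.1 (hd.eventually (gt_mem_nhds hr))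
    refine ⟨N, fun t ht j hj hb => ?_⟩
    rw [mem_ball_zero_iff] at hb
    linarith [hN j hj]
  have hnear : ∀ N : ℕ, ∀ᶠ t in 𝓝 (0 : Cir), (N : ℝ) ≤ S N t := by
    intro N
    have : ∀ᶠ t in 𝓝 (0 : Cir), ∀ j ∈ Finset.range N, 1 ≤ a j t + bump (d j) t := by
      rw [Finset.eventually_all]
      intro j _
      filter_upwards [Metric.closedBall_mem_nhds (0 : Cir) (half_pos (hd0 j))] with t ht
      have h1 := bump_ge (hd0 j) (mem_closedBall_zero_iff.1 ht)
      have h2 : 1 ≤ 2 / d j := by rw [le_div_iff₀ (hd0 j)]; linarith [hd1 j]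
      linarith [h0 j t]
    filter_upwards [this] with t ht
    simpa [hS] using Finset.sum_le_sum ht
  have hsmall : ∀ ε : ℝ, 0 < ε → ∀ᶠ t in 𝓝 (0 : Cir), g t < ε := by
    intro ε hε
    have h1 : Tendsto (fun N : ℕ => Real.exp (-(N : ℝ))) atTop (𝓝 0) :=
      Real.tendsto_exp_neg_atTop_nhds_zero.comp tendsto_natCast_atTop_atTop
    obtain ⟨N, hN⟩ := (h1.eventually (gt_mem_nhds hε)).exists
    filter_upwards [hnear N] with t ht
    exact ((hle N t).trans (Real.exp_le_exp.2 (neg_le_neg ht))).trans_lt hN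
  have hgz : g 0 = 0 := le_antisymm
    (le_of_forall_pos_le_add fun ε hε => by simpa using (hsmall ε hε).self_of_nhds.le) (hg0 0)
  have hgpos : ∀ t, t ≠ 0 → 0 < g t := by
    intro t ht
    obtain ⟨N, hN⟩ := hfar ‖t‖ (norm_pos_iff.2 ht)
    rw [heq N t (hN t le_rfl)]; exact Real.exp_pos _
  have hgc : Continuous g := by
    rw [continuous_iff_continuousAt]
    intro t
    by_cases ht : t = 0
    · subst ht
      rw [ContinuousAt, hgz, tendsto_order]
      exact ⟨fun r hr => Eventually.of_forall fun s => hr.trans_le (hg0 s), hsmall⟩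
    · have htp := norm_pos_iff.2 ht
      obtain ⟨N, hN⟩ := hfar (‖t‖ / 2) (half_pos htp)
      have h1 : ∀ᶠ s in 𝓝 t, ‖t‖ / 2 < ‖s‖ :=
        continuous_norm.continuousAt.eventually (lt_mem_nhds (half_lt_self htp))
      refine ContinuousAt.congr (f := fun s => Real.exp (-S N s))
        (Real.continuous_exp.comp (hSc N).neg).continuousAt ?_
      filter_upwards [h1] with s hs'
      exact (heq N s (hN s hs'.le)).symm
  have hinj : Function.Injective (fourier 1 : Cir → ℂ) := by
    intro s t h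
    rw [fourier_one, fourier_one] at h
    exact AddCircle.injective_toCircle one_ne_zero (Circle.ext h)
  obtain ⟨f, -, hf⟩ := ContinuousMap.exists_extension_forall_mem_of_isClosedEmbedding
    (⟨g, hgc⟩ : C(Cir, ℝ)) (t := univ) (e := (fourier 1 : Cir → ℂ)) (fun _ => mem_univ _)
    univ_nonempty ((map_continuous _).isClosedEmbedding hinj)
  have hf' : ∀ t, f (fourier 1 t) = g t := fun t => congrFun hf t
  have hexp : ∀ t : ℝ, Complex.exp ((t : ℂ) * Complex.I) =
      fourier 1 ((t / (2 * Real.pi) : ℝ) : Cir) := by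
    intro t
    rw [fourier_coe_apply]
    congr 1
    have : (Real.pi : ℂ) ≠ 0 := by exact_mod_cast Real.pi_ne_zero
    push_cast; field_simp
  have hsurj : ∀ z : ℂ, ‖z‖ = 1 → ∃ t : Cir, fourier 1 t = z := by
    intro z hz
    refine ⟨((Complex.arg z / (2 * Real.pi) : ℝ) : Cir), ?_⟩
    rw [← hexp]
    simpa [hz] using Complex.norm_mul_exp_arg_mul_I z
  have hone : (fourier 1 (0 : Cir) : ℂ) = 1 := by simp
  refine ⟨f, f.continuous, fun z hz => ?_, fun z hz => ?_, ?_, fun t ht => ?_, fun N t => ?_,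
    fun N t ht => ?_⟩
  · obtain ⟨t, rfl⟩ := hsurj z hz
    rw [hf']; exact ⟨hg0 t, hg1 t⟩
  · obtain ⟨t, rfl⟩ := hsurj z hz
    rw [hf']
    constructor
    · intro h
      by_contra hne
      exact (hgpos t fun e => hne (by rw [e, hone])).ne' h
    · intro h
      rw [hinj (h.trans hone.symm), hgz]
  · simp only [hexp, hf']
    refine top_unique (le_trans ?_ (lintegral_circle fun t => ENNReal.ofReal (-Real.log (g t))))
    have hN : ∀ N : ℕ, (N : ENNReal) ≤ ∫⁻ t, ENNReal.ofReal (-Real.log (g t)) ∂mu := by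
      intro N
      calc (N : ENNReal) = ∑ _j ∈ Finset.range N, (1 : ENNReal) := by simp
        _ ≤ ∑ j ∈ Finset.range N, ∫⁻ t, ENNReal.ofReal (bump (d j) t) ∂mu :=
          Finset.sum_le_sum fun j _ => bump_lintegral (hd0 j) (hd1 j)
        _ = ∫⁻ t, ∑ j ∈ Finset.range N, ENNReal.ofReal (bump (d j) t) ∂mu := by
          rw [lintegral_finsetSum]
          exact fun j _ => (bump_continuous _).measurable.ennreal_ofReal
        _ ≤ _ := by
          refine lintegral_mono_ae ?_
          have hae : ∀ᵐ t ∂mu, t ≠ (0 : Cir) := by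
            rw [mu_eq_volume]
            have : volume ({0} : Set Cir) = 0 := by
              rw [← Metric.closedBall_zero, AddCircle.volume_closedBall]; simp
            exact compl_mem_ae_iff.2 this
          filter_upwards [hae] with t ht
          rw [← ENNReal.ofReal_sum_of_nonneg fun j _ => bump_nonneg _ _]
          refine ENNReal.ofReal_le_ofReal ?_
          have h1 : Real.log (g t) ≤ -S N t := by
            rw [Real.log_le_iff_le_exp (hgpos t ht)]; exact hle N t
          have h2 : ∑ j ∈ Finset.range N, bump (d j) t ≤ S N t :=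
            Finset.sum_le_sum fun j _ => by linarith [h0 j t]
          linarith
    exact top_le_iff.2 (ENNReal.eq_top_of_forall_nnreal_le fun r =>
      le_trans (by exact_mod_cast Nat.le_ceil r) (hN ⌈r⌉₊))
  · rw [hf']; exact hgpos t ht
  · rw [hf']; exact hle N t
  · rw [hf']; exact heq N t ht

end Crest.Agent.H8.RI
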